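import Vale.Agent.P170.Interp

/-! Explicit formulas, a linear lower bound through Hall's theorem, and proper clauses. -/

namespace Vale.Agent.P170

open Finset Real Vale.Agent.H15 Vale.Agent.H15.Law
open scoped Classical

variable {Ω α : Type} [Fintype α] [Nonempty α]

theorem E_pi_succ (m : ℕ) (f : (Fin (m + 1) → α) → ℝ) : (U (Fin (m + 1) → α)).E f =
    (U α).E fun a => (U (Fin m → α)).E fun c => f (Fin.cons a c) := by
  simp only [E_U]
  rw [← (Fin.consEquiv fun _ => α).sum_comp, Fintype.sum_prod_type, ← Finset.sum_div, div_div]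
  simp [Fin.consEquiv, pow_succ]

theorem E_pw (g : α → Set Ω) (m : ℕ) : ∀ f : Set Ω → ℝ, (pw ((U α).map g) m).E f =
    (U (Fin m → α)).E fun c => f (⋂ i, g (c i)) := by
  induction m with
  | zero => intro f; simp [pw]
  | succ m ih =>
    intro f
    rw [E_pi_succ]
    simp only [pw, E_bind, E_map, ih]
    congr 1; ext a; congr 1; ext c; congr 1; ext σ
    simp [Fin.forall_fin_succ]

theorem E_cl (g : α → Set Ω) (m : ℕ) : (cl ((U α).map g) m).Eqv
    ((U (Fin m → α)).map fun c => ⋃ i, g (c i)) := by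
  induction m with
  | zero => intro f; simp [cl]
  | succ m ih =>
    intro f
    rw [E_map, E_pi_succ]
    simp only [cl, E_bind, E_map, ih _]
    congr 1; ext a; congr 1; ext c; congr 1; ext σ
    simp [Fin.exists_fin_succ]

theorem E_prod (m : ℕ) (F : Fin m → α → ℝ) :
    (U (Fin m → α)).E (fun c => ∏ i, F i (c i)) = ∏ i, (U α).E (F i) := by
  simp only [E_U]
  rw [Finset.prod_div_distrib, Finset.prod_univ_sum]
  simp

variable {V : Type} [Fintype V] [Nonempty V]

theorem sp_eq (k m : ℕ) : sp V k m =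
    (U (Fin m → Fin k → V × Bool)).E fun c => e (⋂ i, ⋃ j, lit (c i j)) := by
  unfold sp T lits
  rw [pw_congr (E_cl lit k) m, E_pw]
  simp only [Set.univ_inter]

theorem hall_term (n m s k : ℕ) (hk : 2 ≤ k) (hs : s ≤ n) (hn : 0 < n) (h : 30 * m ≤ n) :
    (m.choose s : ℝ) * (n.choose s * (((s : ℝ) / n) ^ k) ^ s) ≤ (1 / 4) ^ s := by
  have hn' : (0 : ℝ) < n := by exact_mod_cast hn
  have h1 : ((s : ℝ) / n) ^ k ≤ (s / n) ^ 2 :=
    pow_le_pow_of_le_one (by positivity) (by rw [div_le_one hn']; exact_mod_cast hs) hk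
  have h2 : (s : ℝ) ^ s / s.factorial ≤ exp 1 ^ s := by
    rw [← Real.exp_nat_mul, mul_one]; exact Real.pow_div_factorial_le_exp _ (by positivity) s
  have h3 : (m : ℝ) / n * exp 1 ^ 2 ≤ 1 / 4 := by
    have a1 : (m : ℝ) / n ≤ 1 / 30 := by
      rw [div_le_div_iff₀ hn' (by norm_num)]
      have : (30 * m : ℝ) ≤ n := by exact_mod_cast h
      linarith
    have a2 := Real.exp_one_lt_d9
    have a3 := Real.exp_pos 1
    have a4 : exp 1 ^ 2 ≤ 7.4 := by nlinarith
    calc (m : ℝ) / n * exp 1 ^ 2 ≤ 1 / 30 * 7.4 := by gcongr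
      _ ≤ _ := by norm_num
  calc _ ≤ ((m : ℝ) ^ s / s.factorial) * ((n : ℝ) ^ s / s.factorial * (((s : ℝ) / n) ^ 2) ^ s) := by
        gcongr
        · exact Nat.choose_le_pow_div s m
        · exact Nat.choose_le_pow_div s n
    _ = (m / n) ^ s * ((s : ℝ) ^ s / s.factorial) ^ 2 := by
        simp only [div_pow, ← pow_mul]
        rw [mul_comm 2 s, pow_mul, pow_mul]
        field_simp
    _ ≤ (m / n) ^ s * (exp 1 ^ s) ^ 2 := by gcongr
    _ = (m / n * exp 1 ^ 2) ^ s := by rw [mul_pow, ← pow_mul, ← pow_mul, mul_comm s]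
    _ ≤ _ := by gcongr

theorem hall_bound (k m : ℕ) (hk : 2 ≤ k) (h : 30 * m ≤ Fintype.card V) : 2 / 3 ≤ sp V k m := by
  have pt : ∀ c : Fin m → Fin k → V × Bool, 1 - ∑ s ∈ Ico 1 (m + 1),
      ∑ A ∈ powersetCard s (univ : Finset (Fin m)), ∑ W ∈ powersetCard s (univ : Finset V),
        ∏ i, (if i ∈ A then ∏ j, (if (c i j).1 ∈ W then (1 : ℝ) else 0) else 1) ≤
      e (⋂ i, ⋃ j, lit (c i j)) := by
    intro c
    have nn : ∀ (A : Finset (Fin m)) (W : Finset V),
        0 ≤ ∏ i, (if i ∈ A then ∏ j, (if (c i j).1 ∈ W then (1 : ℝ) else 0) else 1) :=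
      fun A W => by positivity
    by_cases H : ∀ A : Finset (Fin m), A.card ≤ (A.biUnion fun i => univ.image fun j => (c i j).1).card
    · obtain ⟨f, f1, f2⟩ := (Finset.all_card_le_biUnion_card_iff_exists_injective _).1 H
      simp only [mem_image, mem_univ, true_and] at f2
      choose J hJ using f2
      rw [e_of ⟨Function.extend f (fun i => (c i (J i)).2) (fun _ => false), ?_⟩]
      · exact sub_le_self _ (sum_nonneg fun _ _ => sum_nonneg fun _ _ => sum_nonneg fun _ _ => nn _ _)
      · simp only [Set.mem_iInter, Set.mem_iUnion]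
        exact fun i => ⟨J i, by simp only [lit, Set.mem_ofPred_eq, hJ]; exact f1.extend_apply _ _ _⟩
    · push Not at H
      obtain ⟨A, hA⟩ := H
      have hAm : A.card ≤ m := by simpa using card_le_univ A
      obtain ⟨W, w1, w2⟩ := Finset.exists_superset_card_eq hA.le (by omega)
      refine le_trans (sub_nonpos.2 ?_) (e_nonneg _)
      refine le_trans ?_ (single_le_sum (fun _ _ => sum_nonneg fun _ _ => sum_nonneg fun _ _ => nn _ _)
        (mem_Ico.2 ⟨(by omega : 1 ≤ A.card), by omega⟩))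
      refine le_trans ?_ (single_le_sum (fun _ _ => sum_nonneg fun _ _ => nn _ _)
        (mem_powersetCard.2 ⟨subset_univ A, rfl⟩))
      refine le_trans ?_ (single_le_sum (fun _ _ => nn _ _) (mem_powersetCard.2 ⟨subset_univ W, w2⟩))
      refine (Finset.prod_eq_one fun i _ => ?_).ge
      split_ifs with hi
      · exact Finset.prod_eq_one fun j _ =>
          if_pos (w1 (mem_biUnion.2 ⟨i, hi, mem_image_of_mem _ (mem_univ j)⟩))
      · rfl
  rw [sp_eq]
  refine le_trans ?_ (E_mono pt)
  simp only [E_sub, E_const, E_sum]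
  have hn : 0 < Fintype.card V := Fintype.card_pos
  have b : ∀ s ∈ Ico 1 (m + 1), ∑ A ∈ powersetCard s (univ : Finset (Fin m)),
      ∑ W ∈ powersetCard s (univ : Finset V), (U (Fin m → Fin k → V × Bool)).E (fun c =>
        ∏ i, (if i ∈ A then ∏ j, (if (c i j).1 ∈ W then (1 : ℝ) else 0) else 1)) ≤ (1 / 4) ^ s := by
    intro s hs
    refine le_trans (le_of_eq ?_) (hall_term (Fintype.card V) m s k hk
      (by have := mem_Ico.1 hs; omega) hn h)
    rw [Finset.sum_congr rfl (g := fun _ => ((Fintype.card V).choose s *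
      (((s : ℝ) / Fintype.card V) ^ k) ^ s)) fun A hA => ?_]
    · simp
    rw [Finset.sum_congr rfl (g := fun _ => (((s : ℝ) / Fintype.card V) ^ k) ^ s) fun W hW => ?_]
    · simp
    rw [E_prod m (fun i (x : Fin k → V × Bool) =>
      if i ∈ A then ∏ j, (if (x j).1 ∈ W then (1 : ℝ) else 0) else 1)]
    have b1 : (U (V × Bool)).E (fun l => if l.1 ∈ W then (1 : ℝ) else 0) = s / Fintype.card V := by
      rw [E_U, Fintype.sum_prod_type, ← (mem_powersetCard.1 hW).2]
      simp only [Fintype.sum_bool, ← two_mul, ← Finset.mul_sum, Finset.sum_ite_mem, univ_inter,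
        Finset.sum_const, nsmul_eq_mul, Fintype.card_prod, Fintype.card_bool]
      push_cast
      field_simp
    rw [Finset.prod_congr rfl (g := fun i => if i ∈ A then ((s : ℝ) / Fintype.card V) ^ k else 1)
      fun i _ => ?_]
    · rw [Finset.prod_ite_mem, univ_inter, prod_const, (mem_powersetCard.1 hA).2]
    split_ifs
    · rw [E_prod k (fun _ (l : V × Bool) => if l.1 ∈ W then (1 : ℝ) else 0), b1]; simp [div_pow]
    · simp
  have b2 := (Finset.sum_le_sum b).trans (geom_sum_Ico_le_of_lt_one (by norm_num) (by norm_num))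
  norm_num at b2 ⊢
  linarith

theorem dom_pw {μ ν : Law (Set Ω)} {ρ : ℝ} (hρ : 0 ≤ ρ)
    (h : ∀ f : Set Ω → ℝ, (∀ S, 0 ≤ f S) → ρ * ν.E f ≤ μ.E f) (m : ℕ) :
    ∀ f : Set Ω → ℝ, (∀ S, 0 ≤ f S) → ρ ^ m * (pw ν m).E f ≤ (pw μ m).E f := by
  induction m with
  | zero => intro f _; simp [pw]
  | succ m ih =>
    intro f hf
    simp only [pw, E_bind, E_map]
    refine le_trans ?_ (h _ fun S => E_nonneg fun _ => hf _)
    rw [pow_succ', mul_assoc, ← E_const_mul]
    exact mul_le_mul_of_nonneg_left (E_mono fun R => ih _ fun _ => hf _) hρ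

abbrev Cl (V : Type) (k : ℕ) : Type :=
  {C : Finset (V × Bool) // C.card = k ∧ Set.InjOn Prod.fst (C : Set (V × Bool))}

omit [Nonempty V] in
theorem fib_le (k : ℕ) {A B : Finset (V × Bool)} (h : A.card = B.card) :
    (univ.filter fun c : Fin k → V × Bool => univ.image c = A).card ≤
      (univ.filter fun c : Fin k → V × Bool => univ.image c = B).card := by
  obtain ⟨ρ, hρ⟩ := Equiv.Perm.exists_map_finset_eq A B h
  refine card_le_card_of_injOn (fun c => ρ ∘ c) (fun c hc => ?_)
    (fun c _ c' _ e => ρ.injective.comp_left e)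
  simp only [coe_filter, mem_univ, true_and, Set.mem_ofPred_eq] at hc ⊢
  rw [← hρ, ← hc, Finset.map_eq_image, Finset.image_image]; rfl

theorem proper_dom (k : ℕ) (hk : k ≤ Fintype.card V) [Nonempty (Cl V k)]
    (f : Set (V → Bool) → ℝ) (hf : ∀ S, 0 ≤ f S) :
    (1 - k / Fintype.card V) ^ k * ((U (Cl V k)).map fun C => ⋃ l ∈ C.1, lit l).E f ≤
      (cl (lits V) k).E f := by
  obtain ⟨C0⟩ := ‹Nonempty (Cl V k)›
  set φ := (univ.filter fun c : Fin k → V × Bool => univ.image c = C0.1).card with hφ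
  set Q := univ.filter fun c : Fin k → V × Bool =>
    (univ.image c).card = k ∧ Set.InjOn Prod.fst (univ.image c : Set (V × Bool)) with hQ
  have key : ∀ F : Finset (V × Bool) → ℝ,
      ∑ c ∈ Q, F (univ.image c) = φ * ∑ C : Cl V k, F C.1 := by
    intro F
    rw [← Finset.sum_fiberwise_of_maps_to (s := Q) (g := fun c => univ.image c)
      (t := univ.filter fun C : Finset (V × Bool) =>
        C.card = k ∧ Set.InjOn Prod.fst (C : Set (V × Bool))) (fun c hc => by simpa [hQ] using hc),
      Finset.mul_sum, Finset.sum_subtype (p := fun C : Finset (V × Bool) =>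
        C.card = k ∧ Set.InjOn Prod.fst (C : Set (V × Bool))) _ (by simp)]
    refine Finset.sum_congr rfl fun C _ => ?_
    rw [Finset.sum_congr rfl (g := fun _ => F C.1) fun c hc => by rw [(mem_filter.1 hc).2],
      sum_const, nsmul_eq_mul]
    congr 2
    rw [hφ, ← le_antisymm (fib_le k (C.2.1.trans C0.2.1.symm)) (fib_le k (C0.2.1.trans C.2.1.symm))]
    congr 1; ext c
    simp only [hQ, mem_filter, mem_univ, true_and, and_iff_right_iff_imp]
    intro h; rw [h]; exact C.2
  have k1 := key fun _ => 1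
  simp only [sum_const, nsmul_eq_mul, mul_one, card_univ] at k1
  have k2 : (Fintype.card V - k) ^ k * 2 ^ k ≤ Q.card := by
    have := card_le_card_of_injOn (s := (univ : Finset ((Fin k ↪ V) × (Fin k → Bool)))) (t := Q)
      (fun x j => (x.1 j, x.2 j)) (fun x _ => ?_) (fun x _ y _ e => ?_)
    · refine le_trans ?_ this
      simp only [card_univ, Fintype.card_prod, Fintype.card_embedding_eq, Fintype.card_fin,
        Fintype.card_fun, Fintype.card_bool]
      exact Nat.mul_le_mul_right _ ((Nat.pow_le_pow_left (by omega) k).trans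
        (Nat.pow_sub_le_descFactorial _ k))
    · simp only [hQ, coe_filter, mem_univ, true_and, Set.mem_ofPred_eq]
      refine ⟨by rw [card_image_of_injective _ fun a b e => x.1.injective (congrArg Prod.fst e)]; simp,
        ?_⟩
      intro a ha b hb e
      simp only [coe_image, coe_univ, Set.image_univ, Set.mem_range] at ha hb
      obtain ⟨i, rfl⟩ := ha
      obtain ⟨j, rfl⟩ := hb
      rw [x.1.injective e]
    · ext j
      · exact congrArg Prod.fst (congrFun e j)
      · exact congrArg Prod.snd (congrFun e j)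
  have k3 : ((Fintype.card V : ℝ) - k) ^ k * 2 ^ k ≤ φ * Fintype.card (Cl V k) := by
    rw [← k1, ← Nat.cast_sub hk]; exact_mod_cast k2
  unfold lits
  rw [E_cl, E_map, E_map, E_U, E_U]
  have k4 := key fun A => f (⋃ l ∈ A, lit l)
  have k5 : ∑ c ∈ Q, f (⋃ l ∈ univ.image c, lit l) ≤ ∑ c : Fin k → V × Bool, f (⋃ i, lit (c i)) := by
    refine le_trans (le_of_eq (Finset.sum_congr rfl fun c _ => ?_))
      (Finset.sum_le_sum_of_subset_of_nonneg (subset_univ Q) fun _ _ _ => hf _)
    congr 1; ext σ; simp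
  have hn : (0 : ℝ) < Fintype.card V := by exact_mod_cast Fintype.card_pos
  have hc : (0 : ℝ) < Fintype.card (Cl V k) := by exact_mod_cast Fintype.card_pos
  have k6 : 0 ≤ ∑ C : Cl V k, f (⋃ l ∈ C.1, lit l) := sum_nonneg fun _ _ => hf _
  simp only [Fintype.card_fun, Fintype.card_prod, Fintype.card_bool, Fintype.card_fin]
  push_cast
  rw [one_sub_div hn.ne', div_pow, div_mul_div_comm, div_le_div_iff₀ (by positivity) (by positivity),
    mul_pow]
  have k7 := mul_le_mul_of_nonneg_left k3 k6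
  have k8 := mul_le_mul_of_nonneg_left (k4 ▸ k5) hc.le
  have k9 : (0 : ℝ) < (Fintype.card V : ℝ) ^ k := by positivity
  nlinarith [mul_le_mul_of_nonneg_left (k7.trans (le_of_eq_of_le (by ring) k8)) k9.le]

end Vale.Agent.P170
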