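import Vale.Agent.P170.Op

/-! Random clauses with independent literals. -/

namespace Vale.Agent.P170

open Finset Real Vale.Agent.H15 Vale.Agent.H15.Law
open scoped Classical

variable {Ω Ω' : Type}

noncomputable def cl (ν : Law (Set Ω)) : ℕ → Law (Set Ω)
  | 0 => Law.pure ∅
  | k + 1 => ν.bind fun A => (cl ν k).map (A ∪ ·)

theorem e_union (S A B : Set Ω) : e (S ∩ (A ∪ B)) = 1 - (1 - e (S ∩ A)) * (1 - e (S ∩ B)) := by
  rw [Set.inter_union_distrib_left]
  unfold e
  by_cases h1 : (S ∩ A).Nonempty <;> by_cases h2 : (S ∩ B).Nonempty <;> simp [h1, h2]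

theorem T_cl (ν : Law (Set Ω)) (k : ℕ) (S : Set Ω) :
    T (cl ν k) e S = 1 - (1 - T ν e S) ^ k := by
  induction k with
  | zero => simp [T, cl]
  | succ k ih =>
    unfold T at ih ⊢
    simp only [cl, E_bind, E_map, e_union, E_sub, E_const, E_const_mul, ih, E_mul_const]
    ring

theorem cl_mono {μ ν : Law (Set Ω)} (h : ∀ S, T ν e S ≤ T μ e S) (k : ℕ) (S : Set Ω) :
    T (cl ν k) e S ≤ T (cl μ k) e S := by
  rw [T_cl, T_cl]
  have := (T_e_le μ S).trans (e_le_one S)
  have := h S
  gcongr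

theorem var_cl (ν : Law (Set Ω)) (k M : ℕ) (hk : 1 ≤ k) (L : ℝ) (hL : 0 ≤ L) (hM : M ≤ L ^ k)
    (S : Set Ω) (a : ℝ) : g2 (cl ν k) M S a ≤ (G (cl ν k) M e S - a) ^ 2 +
      M * (2 * L * (G (cl ν k) M e S - T ν (G (cl ν k) M e) S)) := by
  have := g2_le (cl ν k) M (fun S => 2 * L * (e S - T ν e S) + 0) (fun S => ?_) M le_rfl S a
  · rwa [G_lin, G_T, mul_zero, add_zero] at this
  rcases S.eq_empty_or_nonempty with rfl | hS
  · simp
  have h1 := hazard (cl ν k) M S
  have h2 := G_le (cl ν k) M S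
  have h3 := T_e_le ν S
  rw [T_cl] at h1 ⊢
  rw [e_of hS] at h1 h2 h3 ⊢
  have h4 : 0 ≤ 1 - T ν e S := by linarith
  generalize 1 - T ν e S = β at *
  by_cases h : 1 ≤ L * β
  · linarith
  · have h5 : (L * β) ^ k ≤ L * β := pow_le_of_le_one (by positivity) (by linarith) (by omega)
    rw [mul_pow] at h5
    have h6 : 0 ≤ β ^ k := by positivity
    nlinarith [mul_le_mul_of_nonneg_left (h2.trans (by linarith : _ ≤ L ^ k)) h6]

theorem cmp_cl {μ ν : Law (Set Ω)} {θ : ℝ} (hθ : 0 ≤ θ) (h1 : ∀ S, T ν e S ≤ T μ e S)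
    (h2 : ∀ S, T μ e S ≤ T ν e S + θ) (k M : ℕ) (L : ℝ) (hL : 0 < L) (hM : M ≤ L ^ (k + 1))
    (S : Set Ω) :
    G (cl μ (k + 1)) M e S ≤ G (cl ν (k + 1)) M e S + M * (2 * (k + 1) * θ * L) := by
  refine (qhybrid (a := (k + 1) * θ * L) (b := (k + 1) * θ / L ^ k) (by positivity)
    (by positivity) (fun S => ?_) M S).trans (add_le_add le_rfl
      (mul_le_mul_of_nonneg_left ?_ (Nat.cast_nonneg M)))
  · rcases S.eq_empty_or_nonempty with rfl | hS
    · simp; positivity
    have a1 := h1 S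
    have a2 := h2 S
    have a3 := (T_e_le μ S).trans (e_le_one S)
    rw [T_cl, T_cl, e_of hS]
    have a4 := abs_pow_sub_pow_le (1 - T ν e S) (1 - T μ e S) (k + 1)
    rw [abs_of_nonneg (a := 1 - T ν e S) (by linarith), abs_of_nonneg (a := 1 - T μ e S)
      (by linarith), max_eq_left (by linarith), abs_of_nonneg (a := 1 - T ν e S - _) (by linarith),
      Nat.add_sub_cancel] at a4
    have a5 := (le_abs_self _).trans a4
    have a6 : 0 ≤ 1 - T ν e S := by linarith
    have a7 : 1 - T ν e S - (1 - T μ e S) ≤ θ := by linarith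
    generalize 1 - T ν e S = y at *
    generalize 1 - T μ e S = x at *
    have a8 : y ^ k ≤ L * y ^ (k + 1) + 1 / L ^ k := by
      by_cases h : 1 ≤ L * y
      · have : 0 ≤ y ^ k := by positivity
        have : 0 ≤ 1 / L ^ k := by positivity
        rw [pow_succ]; nlinarith
      · have : y ^ k ≤ 1 / L ^ k := by
          rw [le_div_iff₀ (by positivity), ← mul_pow]
          exact pow_le_one₀ (by positivity) (by linarith)
        have : 0 ≤ L * y ^ (k + 1) := by positivity
        linarith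
    push_cast at a5
    have a9 : (y - x) * (k + 1) * y ^ k ≤ θ * (k + 1) * y ^ k := by gcongr
    have a10 := mul_le_mul_of_nonneg_left a8 (by positivity : 0 ≤ θ * (k + 1))
    have a11 : (k + 1) * θ / L ^ k = θ * (k + 1) * (1 / L ^ k) := by ring
    rw [a11]
    nlinarith
  · have : M * ((k + 1) * θ / L ^ k) ≤ L ^ (k + 1) * ((k + 1) * θ / L ^ k) := by gcongr
    have e1 : L ^ (k + 1) * ((k + 1) * θ / L ^ k) = (k + 1) * θ * L := by field_simp; ring
    linarith

theorem cl_all {ν : Law (Set Ω)} {P : Set Ω → Prop} (h : ν.All P) (h0 : P ∅)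
    (hu : ∀ A B, P A → P B → P (A ∪ B)) (k : ℕ) : (cl ν k).All P := by
  induction k with
  | zero => exact all_pure h0
  | succ k ih => exact all_bind (h.mono fun A hA => all_map (ih.mono fun B hB => hu _ _ hA hB))

theorem pw_all {ν : Law (Set Ω)} {P : Set Ω → Prop} (h : ν.All P) (h0 : P Set.univ)
    (hu : ∀ A B, P A → P B → P (A ∩ B)) (k : ℕ) : (pw ν k).All P := by
  induction k with
  | zero => exact all_pure h0
  | succ k ih => exact all_bind (h.mono fun A hA => all_map (ih.mono fun B hB => hu _ _ hA hB))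

theorem cl_map (ν : Law (Set Ω')) (ϖ : Ω → Ω') (k : ℕ) :
    (cl (ν.map (ϖ ⁻¹' ·)) k).Eqv ((cl ν k).map (ϖ ⁻¹' ·)) := by
  induction k with
  | zero => intro f; simp [cl]
  | succ k ih => intro f; simp [cl, ih _]

theorem pw_congr {μ ν : Law (Set Ω)} (h : μ.Eqv ν) (m : ℕ) : (pw μ m).Eqv (pw ν m) := by
  induction m with
  | zero => intro f; simp [pw]
  | succ k ih => intro f; simp [pw, ih _, h _]

theorem pw_map (ν : Law (Set Ω')) (ϖ : Ω → Ω') (k : ℕ) :
    (pw (ν.map (ϖ ⁻¹' ·)) k).Eqv ((pw ν k).map (ϖ ⁻¹' ·)) := by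
  induction k with
  | zero => intro f; simp [pw]
  | succ k ih => intro f; simp [pw, ih _]

theorem pw_cl_map (ν : Law (Set Ω')) (ϖ : Ω → Ω') (k m : ℕ) :
    (pw (cl (ν.map (ϖ ⁻¹' ·)) k) m).Eqv ((pw (cl ν k) m).map (ϖ ⁻¹' ·)) :=
  (pw_congr (cl_map ν ϖ k) m).trans (pw_map _ ϖ m)

/-- uniform law on a finite type -/
noncomputable def U (α : Type) [Fintype α] [Nonempty α] : Law α := unif univ univ_nonempty

theorem E_U {α : Type} [Fintype α] [Nonempty α] (f : α → ℝ) :
    (U α).E f = (∑ a, f a) / Fintype.card α := E_unif _ _ _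

variable {V : Type} [Fintype V] [Nonempty V]

def lit (l : V × Bool) : Set (V → Bool) := {σ | σ l.1 = l.2}

noncomputable def lits (V : Type) [Fintype V] [Nonempty V] : Law (Set (V → Bool)) :=
  (U (V × Bool)).map lit

noncomputable def mod (X : Finset V) (A : Set (V → Bool)) : Law (Set (V → Bool)) :=
  (U (V × Bool)).map fun l => if l.1 ∈ X then A else lit l

theorem low_le (X : Finset V) (S : Set (V → Bool)) : T (mod X ∅) e S ≤ T (lits V) e S := by
  unfold T mod lits
  simp only [E_map]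
  refine E_mono fun l => e_mono (Set.inter_subset_inter_right _ ?_)
  split_ifs <;> simp

theorem le_up (X : Finset V) (S : Set (V → Bool)) : T (lits V) e S ≤ T (mod X Set.univ) e S := by
  unfold T mod lits
  simp only [E_map]
  refine E_mono fun l => e_mono (Set.inter_subset_inter_right _ ?_)
  split_ifs <;> simp

theorem up_le (X : Finset V) (S : Set (V → Bool)) :
    T (mod X Set.univ) e S ≤ T (mod X ∅) e S + X.card / Fintype.card V := by
  have h : (U (V × Bool)).E (fun l => if l.1 ∈ X then 1 else 0) = X.card / Fintype.card V := by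
    rw [E_U, Fintype.sum_prod_type]
    have : (0 : ℝ) < Fintype.card V := by exact_mod_cast Fintype.card_pos
    simp only [Fintype.sum_bool, ← two_mul, ← Finset.mul_sum, Finset.sum_ite_mem, univ_inter,
      Finset.sum_const, nsmul_eq_mul, Fintype.card_prod, Fintype.card_bool]
    push_cast
    field_simp
  unfold T mod
  simp only [E_map]
  rw [← h, ← E_add]
  refine E_mono fun l => ?_
  split_ifs
  · simpa using e_le_one S
  · simp

theorem up_low (X : Finset V) (k M : ℕ) (L : ℝ) (hL : 0 < L) (hM : M ≤ L ^ (k + 1))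
    (S : Set (V → Bool)) : G (cl (mod X Set.univ) (k + 1)) M e S ≤ G (cl (mod X ∅) (k + 1)) M e S +
      M * (2 * (k + 1) * (X.card / Fintype.card V) * L) :=
  cmp_cl (by positivity) (fun S => (low_le X S).trans (le_up X S)) (up_le X) k M L hL hM S

theorem unit_cost (k M : ℕ) (L : ℝ) (hL : 0 < L) (hM : M ≤ L ^ (k + 1)) :
    G (cl (lits V) (k + 1)) M e Set.univ - T (lits V) (G (cl (lits V) (k + 1)) M e) Set.univ ≤
      M * (2 * (k + 1) * (1 / Fintype.card V) * L) := by
  rw [sub_le_comm]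
  refine const_le_E (μ := U (V × Bool))
    (f := fun l => G (cl (lits V) (k + 1)) M e (Set.univ ∩ lit l)) fun l => ?_
  have a1 := G_hybrid (cl_mono (le_up {l.1}) (k + 1)) M Set.univ
  have a2 := up_low {l.1} k M L hL hM Set.univ
  have a3 := G_hybrid (cl_mono (low_le {l.1}) (k + 1)) M (Set.univ ∩ lit l)
  have a4 : G (cl (mod {l.1} ∅) (k + 1)) M e Set.univ =
      G (cl (mod {l.1} ∅) (k + 1)) M e (Set.univ ∩ lit l) := by
    refine Finset.sum_congr rfl fun j _ => E_congr_all ((pw_all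
      (P := fun R => ∀ σ ∈ R, Function.update σ l.1 l.2 ∈ R) (cl_all (all_map (all_true _ ?_))
        (by simp) ?_ _) (by simp) ?_ j).mono ?_)
    · intro l' σ hσ
      split_ifs at hσ ⊢ with h
      · exact hσ
      · simp only [mem_singleton] at h
        simpa [lit, Function.update_of_ne h] using hσ
    · intro A B hA hB σ hσ
      exact hσ.imp (hA σ) (hB σ)
    · intro A B hA hB σ hσ
      exact ⟨hA σ hσ.1, hB σ hσ.2⟩
    · intro R hR
      simp only [Set.univ_inter]
      refine le_antisymm ?_ (e_mono Set.inter_subset_right)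
      rcases R.eq_empty_or_nonempty with rfl | ⟨σ, hσ⟩
      · simp
      · rw [e_of (S := lit l ∩ R) ⟨_, by simp [lit], hR σ hσ⟩]; exact e_le_one _
  rw [card_singleton, Nat.cast_one] at a2
  linarith

theorem var_bound (k M : ℕ) (L : ℝ) (hL : 0 < L) (hM : M ≤ L ^ (k + 1)) :
    g2 (cl (lits V) (k + 1)) M Set.univ (G (cl (lits V) (k + 1)) M e Set.univ) ≤
      4 * (k + 1) * (M * L) ^ 2 / Fintype.card V := by
  have h1 := var_cl (lits V) (k + 1) M (by omega) L hL.le hM Set.univ
    (G (cl (lits V) (k + 1)) M e Set.univ)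
  have h2 := mul_le_mul_of_nonneg_left (unit_cost (V := V) k M L hL hM)
    (by positivity : 0 ≤ M * (2 * L))
  refine h1.trans (le_trans (by nlinarith) (h2.trans (le_of_eq ?_)))
  ring

theorem first_moment (k m : ℕ) :
    T (pw (cl (lits V) k) m) e Set.univ ≤ 2 ^ Fintype.card V * (1 - (1 / 2) ^ k) ^ m := by
  have h1 : T (pw (cl (lits V) k) m) e Set.univ ≤ ∑ σ : V → Bool, T (pw (cl (lits V) k) m) e {σ} := by
    unfold T
    rw [← E_sum]
    refine E_mono fun R => ?_
    rcases R.eq_empty_or_nonempty with rfl | ⟨σ, hσ⟩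
    · simp
    · refine le_trans ?_ (Finset.single_le_sum (f := fun σ => e ({σ} ∩ R))
        (fun _ _ => e_nonneg _) (mem_univ σ))
      rw [e_of (S := {σ} ∩ R) ⟨σ, rfl, hσ⟩]; exact e_le_one _
  have h2 : ∀ σ : V → Bool, T (lits V) e {σ} = 1 / 2 := by
    intro σ
    unfold T lits
    rw [E_map, E_U, Fintype.sum_prod_type]
    have : (0 : ℝ) < Fintype.card V := by exact_mod_cast Fintype.card_pos
    have h3 : ∀ x : V, ∑ b : Bool, e ({σ} ∩ lit (x, b)) = 1 := by
      intro x
      cases h : σ x <;> simp [e, lit, h]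
    simp only [h3]
    simp
    field_simp
  refine h1.trans ((Finset.sum_le_card_nsmul _ _ ((1 - (1 / 2) ^ k) ^ m) fun σ _ => ?_).trans
    (by simp))
  refine (pw_le_pow _ _ _).trans (le_of_eq ?_)
  rw [T_cl, h2]; norm_num

end Vale.Agent.P170
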