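import Vale.Agent.P170.Limit

/-! The limiting threshold. -/

namespace Vale.Agent.P170

open Finset Real Filter Topology Vale.Agent.H15 Vale.Agent.H15.Law
open scoped Classical

theorem small_bound {K ε : ℝ} (hε : 0 < ε) {n : ℕ} (hn : 1 ≤ n) :
    (K * yy n ^ 5) ^ 2 / (ε * n) ^ 2 ≤ (K / ε) ^ 2 * (yy n)⁻¹ := by
  have hy := one_le_yy hn
  rw [← yy_pow n]
  have e1 : (K * yy n ^ 5) ^ 2 / (ε * yy n ^ 6) ^ 2 = (K / ε) ^ 2 * ((yy n)⁻¹ * (yy n)⁻¹) := by
    field_simp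
  rw [e1]
  exact mul_le_mul_of_nonneg_left (mul_le_of_le_one_right (by positivity) (inv_le_one_of_one_le₀ hy))
    (sq_nonneg _)

theorem iid_threshold (k : ℕ) (hk : 2 ≤ k) : ∃ α : ℝ, 0 < α ∧
    (∀ c, 0 ≤ c → c < α → Tendsto (fun n : ℕ => 1 - sp (Vn n) (k + 1) ⌊c * n⌋₊) atTop (𝓝 0)) ∧
    (∀ c, α < c → Tendsto (fun n : ℕ => sp (Vn n) (k + 1) ⌊c * n⌋₊) atTop (𝓝 0)) := by
  have hC : 1 ≤ 2 ^ (k + 1 + 2) := Nat.one_le_two_pow
  obtain ⟨α, hα⟩ := mu_tendsto hk hC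
  have a1 : 1 / 45 ≤ α := ge_of_tendsto hα ((eventually_ge_atTop 1).mono fun n hn => mu_ge hk hC hn)
  have a2 : α ≤ 4 / 5 * 2 ^ (k + 1 + 2) :=
    le_of_tendsto hα ((eventually_ge_atTop 1).mono fun n hn => mu_le' _ hn)
  have a3 : (2 : ℝ) ^ (k + 1 + 2) = ((2 ^ (k + 1 + 2) : ℕ) : ℝ) := by push_cast; rfl
  rw [a3] at a2
  generalize 2 ^ (k + 1 + 2) = C at *
  have hC' : (1 : ℝ) ≤ C := by exact_mod_cast hC
  have z : ∀ ε : ℝ, Tendsto (fun n => (2 * (k + 1) * C ^ 2 / ε : ℝ) ^ 2 * (yy n)⁻¹) atTop (𝓝 0) :=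
    fun ε => by simpa using yy_inv.const_mul ((2 * (k + 1) * C ^ 2 / ε : ℝ) ^ 2)
  refine ⟨α, by linarith, fun c c0 hc => ?_, fun c hc => ?_⟩
  · refine squeeze_zero' (Eventually.of_forall fun n => sub_nonneg.2 (sp_le_one _ _ _)) ?_
      (z ((α - c) / 2))
    filter_upwards [hα.eventually (lt_mem_nhds (by linarith : (α + c) / 2 < α)),
      eventually_ge_atTop 1] with n h1 hn
    have hn' : (0 : ℝ) < n := by exact_mod_cast hn
    rw [lt_div_iff₀ hn'] at h1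
    refine (F1 hk hC hn _ ((α - c) / 2 * n) (mul_pos (by linarith) hn') ?_).trans
      (small_bound (by linarith) hn)
    linarith [Nat.floor_le (by positivity : 0 ≤ c * n)]
  · obtain ⟨c', c1, c2, c3⟩ : ∃ c', α < c' ∧ c' ≤ c ∧ c' < C :=
      ⟨min c (9 / 10 * C), lt_min hc (by linarith), min_le_left _ _,
        (min_le_right _ _).trans_lt (by linarith)⟩
    refine squeeze_zero' (Eventually.of_forall fun n => sp_nonneg _ _ _) ?_ (z ((c' - α) / 2))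
    filter_upwards [hα.eventually (gt_mem_nhds (by linarith : α < (α + c') / 2)),
      eventually_ge_atTop 1] with n h1 hn
    have hn' : (0 : ℝ) < n := by exact_mod_cast hn
    rw [div_lt_iff₀ hn'] at h1
    refine (pw_anti _ _ (Nat.floor_le_floor (by gcongr : c' * n ≤ c * n))).trans ?_
    refine (F2 hk hC hn _ ((c' - α) / 2 * n) (mul_pos (by linarith) hn') ?_ ?_).trans
      (small_bound (by linarith) hn)
    · rw [Nat.floor_lt (mul_nonneg (by linarith) hn'.le)]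
      push_cast; gcongr
    · linarith [Nat.lt_floor_add_one (c' * n)]

noncomputable def pp (n k m : ℕ) : ℝ :=
  (Nat.card {F : Fin m → Cl (Fin n) k // ∃ σ : Fin n → Bool, ∀ i, ∃ l ∈ (F i).1, σ l.1 = l.2} : ℝ) /
    Nat.card (Fin m → Cl (Fin n) k)

theorem transfer (k n m : ℕ) (c : ℝ) (hn : 1 ≤ n) (hk : 2 * k ≤ n) (hm : m ≤ c * n) :
    0 ≤ pp n k m ∧ pp n k m ≤ 1 ∧ pp n k m ≤ exp (2 * k ^ 2 * c) * sp (Vn n) k m ∧
      1 - pp n k m ≤ exp (2 * k ^ 2 * c) * (1 - sp (Vn n) k m) := by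
  obtain ⟨n, rfl⟩ : ∃ n', n = n' + 1 := ⟨n - 1, by omega⟩
  have ne : Nonempty (Cl (Fin (n + 1)) k) := by
    obtain ⟨A, -, hA⟩ := Finset.exists_subset_card_eq (s := (univ : Finset (Fin (n + 1)))) (n := k)
      (by simp; omega)
    refine ⟨⟨A.image fun v => (v, true), ?_, ?_⟩⟩
    · rw [card_image_of_injective _ fun a b e => congrArg Prod.fst e, hA]
    · intro a ha b hb e
      simp only [coe_image, Set.mem_image] at ha hb
      obtain ⟨i, -, rfl⟩ := ha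
      obtain ⟨j, -, rfl⟩ := hb
      exact Prod.ext e rfl
  have h1 : ∀ inst : Fintype (Cl (Fin (n + 1)) k), pp (n + 1) k m =
      (pw ((U (Cl (Fin (n + 1)) k)).map fun C => ⋃ l ∈ C.1, lit l) m).E e := by
    intro inst
    rw [E_pw, E_U, pp, Nat.card_eq_fintype_card, Nat.card_eq_fintype_card, Fintype.card_subtype,
      Finset.card_filter]
    push_cast
    congr 1
    refine Finset.sum_congr rfl fun F _ => ?_
    simp [e, Set.Nonempty, lit]
  have hn' : (0 : ℝ) < (n + 1 : ℕ) := by positivity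
  have x0 : (0 : ℝ) ≤ k / (n + 1 : ℕ) := by positivity
  have x1 : (k : ℝ) / (n + 1 : ℕ) ≤ 1 / 2 := by
    rw [div_le_div_iff₀ hn' (by norm_num)]
    have : (2 * k : ℝ) ≤ (n + 1 : ℕ) := by exact_mod_cast hk
    linarith
  have h2 := dom_pw (pow_nonneg (by rw [Fintype.card_fin]; linarith) k)
    (proper_dom (V := Fin (n + 1)) k (by simp; omega)) m
  have h3 : 1 ≤ exp (2 * k ^ 2 * c) * ((1 - k / Fintype.card (Fin (n + 1)) : ℝ) ^ k) ^ m := by
    rw [Fintype.card_fin]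
    have b1 : exp (-(2 * (k / (n + 1 : ℕ)))) ≤ 1 - k / (n + 1 : ℕ) := by
      have := Real.add_one_le_exp (2 * (k / (n + 1 : ℕ)) : ℝ)
      rw [Real.exp_neg, inv_le_iff_one_le_mul₀ (exp_pos _)]
      nlinarith
    refine le_trans ?_ (mul_le_mul_of_nonneg_left (pow_le_pow_left₀ (by positivity)
      (pow_le_pow_left₀ (exp_pos _).le b1 k) m) (exp_pos _).le)
    rw [← Real.exp_nat_mul, ← Real.exp_nat_mul, ← Real.exp_add, Real.one_le_exp_iff]
    have b2 : (m : ℝ) / (n + 1 : ℕ) ≤ c := by rwa [div_le_iff₀ hn']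
    have b3 : (m : ℝ) * (k * -(2 * (k / (n + 1 : ℕ)))) = -(2 * k ^ 2 * (m / (n + 1 : ℕ))) := by ring
    rw [b3]
    nlinarith [mul_le_mul_of_nonneg_left b2 (by positivity : (0 : ℝ) ≤ 2 * k ^ 2)]
  have h4 : sp (Vn (n + 1)) k m = (pw (cl (lits (Fin (n + 1))) k) m).E e := by
    unfold sp T; simp only [Set.univ_inter]; rfl
  have h5 := h2 e e_nonneg
  have h6 := h2 (fun S => 1 - e S) fun S => sub_nonneg.2 (e_le_one S)
  rw [E_sub, E_sub, E_const, E_const] at h6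
  have h7 : 0 ≤ pp (n + 1) k m := h1 inferInstance ▸ E_nonneg e_nonneg
  have h8 : pp (n + 1) k m ≤ 1 := h1 inferInstance ▸ E_le_const e_le_one
  rw [← h1, ← h4] at h5 h6
  have := exp_pos (2 * k ^ 2 * c)
  refine ⟨h7, h8, ?_, ?_⟩
  · nlinarith [mul_le_mul_of_nonneg_left h5 this.le]
  · nlinarith [mul_le_mul_of_nonneg_left h6 this.le]

theorem threshold (k : ℕ) (hk : 3 ≤ k) : ∃ α : ℝ, 0 < α ∧
    (∀ c, 0 ≤ c → c < α → Tendsto (fun n : ℕ => pp n k ⌊c * n⌋₊) atTop (𝓝 1)) ∧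
    (∀ c, α < c → Tendsto (fun n : ℕ => pp n k ⌊c * n⌋₊) atTop (𝓝 0)) := by
  obtain ⟨k, rfl⟩ : ∃ k', k = k' + 1 := ⟨k - 1, by omega⟩
  obtain ⟨α, h0, h1, h2⟩ := iid_threshold k (by omega)
  have tr : ∀ c : ℝ, 0 ≤ c → ∀ᶠ n : ℕ in atTop, _ := fun c hc =>
    (eventually_ge_atTop (2 * (k + 1))).mono fun n hn =>
      transfer (k + 1) n ⌊c * n⌋₊ c (by omega) hn (Nat.floor_le (by positivity))
  refine ⟨α, h0, fun c c0 hc => ?_, fun c hc => ?_⟩
  · have := squeeze_zero' ((tr c c0).mono fun n h => sub_nonneg.2 h.2.1)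
      ((tr c c0).mono fun n h => h.2.2.2) (by simpa using (h1 c c0 hc).const_mul _)
    simpa using this.const_sub 1
  · exact squeeze_zero' ((tr c (by linarith)).mono fun n h => h.1)
      ((tr c (by linarith)).mono fun n h => h.2.2.1) (by simpa using (h2 c hc).const_mul _)

end Vale.Agent.P170
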