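import Vale.Agent.P170.Clause

/-! Interpolation between a system and two subsystems. -/

namespace Vale.Agent.P170

open Finset Real Vale.Agent.H15 Vale.Agent.H15.Law
open scoped Classical

variable {Ω : Type}

noncomputable def coin (a : ℝ) (h0 : 0 ≤ a) (h1 : a ≤ 1) : Law Bool where
  ι := Bool
  fin := inferInstance
  w := fun b => if b then a else 1 - a
  pt := id
  w_nonneg := fun b => by cases b <;> simp [h0, h1]
  w_sum := by simp

theorem E_coin (a : ℝ) (h0 : 0 ≤ a) (h1 : a ≤ 1) (f : Bool → ℝ) :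
    (coin a h0 h1).E f = a * f true + (1 - a) * f false := by
  show ∑ b : Bool, (if b then a else 1 - a) * f b = _
  simp

noncomputable def bin (c : Law Bool) : ℕ → Law (ℕ × ℕ)
  | 0 => Law.pure (0, 0)
  | m + 1 => (bin c m).bind fun p => c.map fun b => if b then (p.1 + 1, p.2) else (p.1, p.2 + 1)

theorem bin_all (c : Law Bool) (m : ℕ) : (bin c m).All (fun p => p.1 + p.2 = m) := by
  induction m with
  | zero => exact all_pure rfl
  | succ m ih =>
    refine all_bind (ih.mono fun p hp => all_map (all_true _ fun b => ?_))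
    cases b <;> simp <;> omega

theorem bin_var (a : ℝ) (h0 : 0 ≤ a) (h1 : a ≤ 1) (m : ℕ) :
    (bin (coin a h0 h1) m).E (fun p => (p.1 - a * m) ^ 2) ≤ m := by
  induction m with
  | zero => simp [bin]
  | succ m ih =>
    simp only [bin, E_bind, E_map, E_coin]
    refine (E_mono (g := fun p => ((p.1 : ℝ) - a * m) ^ 2 + 1) fun p => ?_).trans ?_
    · simp only [if_true, Bool.false_eq_true, if_false]
      push_cast; nlinarith
    · rw [E_add, E_const]; push_cast; linarith

theorem T_mix (c : Law Bool) (μ ν : Law (Set Ω)) (m : ℕ) : ∀ (f : Set Ω → ℝ) (S : Set Ω),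
    T (pw (c.bind fun b => if b then μ else ν) m) f S =
      (bin c m).E fun p => T (pw μ p.1) (T (pw ν p.2) f) S := by
  induction m with
  | zero => intro f S; simp [bin]
  | succ m ih =>
    intro f S
    rw [T_pw_succ, T_comm, ih]
    simp only [bin, E_bind, E_map]
    congr 1; ext p
    rw [← T_comm (c.bind _), ← T_comm (c.bind _)]
    conv_lhs => unfold T; rw [E_bind]
    congr 1; ext b
    cases b
    · simp only [Bool.false_eq_true, if_false]
      rw [T_pw_succ, ← T_comm ν]; rfl
    · simp only [if_true]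
      rw [T_pw_succ]; rfl

noncomputable def sp (V : Type) [Fintype V] [Nonempty V] (k m : ℕ) : ℝ :=
  T (pw (cl (lits V) k) m) e Set.univ

theorem sp_nonneg (V : Type) [Fintype V] [Nonempty V] (k m : ℕ) : 0 ≤ sp V k m :=
  T_nonneg _ e_nonneg _

theorem sp_le_one (V : Type) [Fintype V] [Nonempty V] (k m : ℕ) : sp V k m ≤ 1 :=
  (T_e_le _ _).trans (e_le_one _)

variable {V V1 V2 : Type} [Fintype V] [Nonempty V] [Fintype V1] [Nonempty V1] [Fintype V2]

noncomputable def sub (ι : V1 → V) : Law (Set (V → Bool)) :=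
  (lits V1).map ((fun σ : V → Bool => σ ∘ ι) ⁻¹' ·)

omit [Fintype V] [Nonempty V] in
theorem sp_sub {ι : V1 → V} (h : Function.Injective ι) (k m : ℕ) :
    T (pw (cl (sub ι) k) m) e Set.univ = sp V1 k m := by
  unfold sp T sub
  rw [pw_cl_map, E_map]
  congr 1; ext R
  simp only [Set.univ_inter, e, h.surjective_comp_right.nonempty_preimage]

omit [Nonempty V] [Nonempty V1] in
theorem sum_split (E : V1 ⊕ V2 ≃ V) (f : V × Bool → ℝ) : ∑ l, f l =
    ∑ l : V1 × Bool, f (E (.inl l.1), l.2) + ∑ l : V2 × Bool, f (E (.inr l.1), l.2) := by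
  simp only [Fintype.sum_prod_type]
  rw [← E.sum_comp, Fintype.sum_sum_type]

omit [Fintype V] [Nonempty V] in
theorem T_sub (ι : V1 → V) (S : Set (V → Bool)) : T (sub ι) e S =
    (∑ l : V1 × Bool, e (S ∩ lit (ι l.1, l.2))) / (2 * Fintype.card V1) := by
  unfold T sub lits
  rw [E_map, E_map, E_U, Fintype.card_prod, Fintype.card_bool]
  push_cast
  rw [mul_comm]; rfl

omit [Nonempty V] [Nonempty V1] in
theorem card_split (E : V1 ⊕ V2 ≃ V) :
    (Fintype.card V : ℝ) = Fintype.card V1 + Fintype.card V2 := by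
  rw [← Fintype.card_congr E, Fintype.card_sum]; push_cast; rfl

theorem add_vars (E : V1 ⊕ V2 ≃ V) (k M : ℕ) (L : ℝ) (hL : 0 < L) (hM : M ≤ L ^ (k + 1)) :
    G (cl (lits V1) (k + 1)) M e Set.univ ≤ G (cl (lits V) (k + 1)) M e Set.univ +
      M * (2 * (k + 1) * (Fintype.card V2 / Fintype.card V) * L) := by
  set X : Finset V := univ.map ⟨fun v => E (.inr v), E.injective.comp Sum.inr_injective⟩ with hX
  have a1 := up_low X k M L hL hM Set.univ
  have a2 := G_hybrid (cl_mono (low_le X) (k + 1)) M Set.univ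
  have a3 : ∀ S, T (sub fun v => E (.inl v)) e S ≤ T (mod X Set.univ) e S := by
    intro S
    have b1 := T_e_le (sub fun v : V1 => E (.inl v)) S
    rw [T_sub] at b1 ⊢
    unfold T mod
    rw [E_map, E_U, sum_split E, Fintype.card_prod, Fintype.card_bool]
    have b2 : (0 : ℝ) < Fintype.card V1 := by exact_mod_cast Fintype.card_pos
    have b3 : (0 : ℝ) ≤ Fintype.card V2 := Nat.cast_nonneg _
    push_cast
    rw [card_split E]
    simp only [hX, mem_map, mem_univ, true_and, Function.Embedding.coeFn_mk,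
      EmbeddingLike.apply_eq_iff_eq, reduceCtorEq, exists_false, if_false, exists_apply_eq_apply,
      if_true, Set.inter_univ, Finset.sum_const, card_univ, Fintype.card_prod, Fintype.card_bool,
      nsmul_eq_mul]
    push_cast
    rw [div_le_iff₀ (by positivity)] at b1
    rw [div_le_div_iff₀ (by positivity) (by positivity)]
    nlinarith [mul_le_mul_of_nonneg_left b1 b3]
  have a4 := G_hybrid (cl_mono a3 (k + 1)) M Set.univ
  have a5 : G (cl (sub fun v : V1 => E (.inl v)) (k + 1)) M e Set.univ =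
      G (cl (lits V1) (k + 1)) M e Set.univ :=
    Finset.sum_congr rfl fun j _ => sp_sub (E.injective.comp Sum.inl_injective) _ _
  rw [hX, card_map, card_univ] at a1
  linarith

theorem interp [Nonempty V2] (E : V1 ⊕ V2 ≃ V) (k m : ℕ) (s δ : ℝ) (hs : 0 < s) (hδ : 0 ≤ δ)
    (h1 : ∀ i : ℕ, (i : ℝ) ≤ Fintype.card V1 / Fintype.card V * m + s → 1 - sp V1 k i ≤ δ)
    (h2 : ∀ i : ℕ, (i : ℝ) ≤ Fintype.card V2 / Fintype.card V * m + s → 1 - sp V2 k i ≤ δ) :
    1 - sp V k m ≤ 2 * δ + 2 * m / s ^ 2 := by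
  have b1 : (0 : ℝ) < Fintype.card V1 := by exact_mod_cast Fintype.card_pos
  have b2 : (0 : ℝ) < Fintype.card V2 := by exact_mod_cast Fintype.card_pos
  have b3 := card_split E
  have b4 : (Fintype.card V2 : ℝ) / Fintype.card V = 1 - Fintype.card V1 / Fintype.card V := by
    rw [b3]; field_simp; ring
  rw [b4] at h2
  have h0 : (0 : ℝ) ≤ Fintype.card V1 / Fintype.card V := by positivity
  have h0' : (Fintype.card V1 : ℝ) / Fintype.card V ≤ 1 := by
    rw [div_le_one (by linarith)]; linarith
  have a1 : ∀ S, T (lits V) e S =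
      Fintype.card V1 / Fintype.card V * T (sub fun v => E (.inl v)) e S +
      (1 - Fintype.card V1 / Fintype.card V) * T (sub fun v => E (.inr v)) e S := by
    intro S
    rw [T_sub, T_sub, ← b4]
    unfold T lits
    rw [E_map, E_U, sum_split E, Fintype.card_prod, Fintype.card_bool]
    push_cast
    rw [b3]
    field_simp
  generalize (Fintype.card V1 : ℝ) / Fintype.card V = a at *
  have a2 : ∀ S, T ((coin a h0 h0').bind fun b => if b then cl (sub fun v => E (.inl v)) k else
      cl (sub fun v => E (.inr v)) k) e S ≤ T (cl (lits V) k) e S := by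
    intro S
    have c1 := (T_e_le (sub fun v : V1 => E (.inl v)) S).trans (e_le_one _)
    have c2 := (T_e_le (sub fun v : V2 => E (.inr v)) S).trans (e_le_one _)
    have c3 := (convexOn_pow (𝕜 := ℝ) k).2 (sub_nonneg.2 c1) (sub_nonneg.2 c2) h0
      (sub_nonneg.2 h0') (by ring)
    have c4 := T_cl (sub fun v : V1 => E (.inl v)) k S
    have c5 := T_cl (sub fun v : V2 => E (.inr v)) k S
    rw [T_cl, a1]
    conv_lhs => unfold T; rw [E_bind, E_coin]
    simp only [smul_eq_mul] at c3
    simp only [if_true, Bool.false_eq_true, if_false]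
    unfold T at *
    rw [c4, c5]
    refine le_trans (by linarith) (sub_le_sub_left (le_of_eq_of_le ?_ c3) 1)
    congr 1; ring
  have a3 := hybrid a2 m Set.univ
  rw [T_mix] at a3
  have a4 := bin_var a h0 h0' m
  have a5 : (bin (coin a h0 h0') m).E (fun p => 1 - 2 * δ - 2 / s ^ 2 * (p.1 - a * m) ^ 2) ≤
      (bin (coin a h0 h0') m).E fun p => T (pw (cl (sub fun v => E (.inl v)) k) p.1)
        (T (pw (cl (sub fun v => E (.inr v)) k) p.2) e) Set.univ := by
    refine E_mono_all ((bin_all _ m).mono fun p hp => ?_)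
    have hp' : (p.1 : ℝ) + p.2 = m := by exact_mod_cast hp
    have c0 : ∀ x y : ℝ, y ≤ 1 → (x ≤ s → y ≤ δ) → y ≤ δ + 1 / s ^ 2 * x ^ 2 := by
      intro x y hy h
      by_cases hx : x ≤ s
      · have : 0 ≤ 1 / s ^ 2 * x ^ 2 := by positivity
        linarith [h hx]
      · have : 1 ≤ 1 / s ^ 2 * x ^ 2 := by
          rw [one_div, inv_mul_eq_div, le_div_iff₀ (by positivity)]; nlinarith
        linarith
    have c1 := c0 (p.1 - a * m) _ (by linarith [sp_nonneg V1 k p.1]) fun h => h1 p.1 (by linarith)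
    have c2 := c0 (-(p.1 - a * m)) _ (by linarith [sp_nonneg V2 k p.2]) fun h =>
      h2 p.2 (by linarith)
    have c3 : sp V1 k p.1 + sp V2 k p.2 - 1 ≤ T (pw (cl (sub fun v => E (.inl v)) k) p.1)
        (T (pw (cl (sub fun v => E (.inr v)) k) p.2) e) Set.univ := by
      unfold sp T sub
      rw [pw_cl_map, E_map]
      simp only [pw_cl_map _ _ _ _ _, E_map]
      refine le_trans (le_of_eq ?_) (E_mono fun A => E_mono
        (f := fun B => e (Set.univ ∩ A) + e (Set.univ ∩ B) - 1) fun B => ?_)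
      · simp only [E_add, E_sub, E_const]
      simp only [Set.univ_inter]
      rcases A.eq_empty_or_nonempty with rfl | ⟨σ, hσ⟩
      · simpa using e_le_one B
      rcases B.eq_empty_or_nonempty with rfl | ⟨τ, hτ⟩
      · simpa using e_le_one A
      rw [e_of (S := _ ∩ _) ⟨Sum.elim σ τ ∘ E.symm, by simpa [Function.comp_def] using hσ,
        by simpa [Function.comp_def] using hτ⟩]
      linarith [e_le_one A, e_le_one B]
    rw [neg_sq] at c2
    have : 2 / s ^ 2 * ((p.1 : ℝ) - a * m) ^ 2 = 2 * (1 / s ^ 2 * (p.1 - a * m) ^ 2) := by ring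
    linarith
  rw [E_sub, E_const, E_const_mul] at a5
  have a6 := mul_le_mul_of_nonneg_left a4 (by positivity : 0 ≤ 2 / s ^ 2)
  have : 2 / s ^ 2 * m = 2 * m / s ^ 2 := by ring
  unfold sp
  linarith

end Vale.Agent.P170
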