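import Vale.Agent.P170.Bridge

/-! Convergence of the normalized mean survival time. -/

namespace Vale.Agent.P170

open Finset Real Filter Topology Vale.Agent.H15 Vale.Agent.H15.Law
open scoped Classical

abbrev Vn (n : ℕ) : Type := Fin (n - 1 + 1)

theorem card_Vn {n : ℕ} (hn : 1 ≤ n) : Fintype.card (Vn n) = n := by
  rw [Fintype.card_fin]; omega

noncomputable def yy (n : ℕ) : ℝ := (n : ℝ) ^ ((6 : ℕ) : ℝ)⁻¹

theorem yy_pow (n : ℕ) : yy n ^ 6 = n := Real.rpow_inv_natCast_pow (by positivity) (by norm_num)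

theorem yy_nonneg (n : ℕ) : 0 ≤ yy n := Real.rpow_nonneg (by positivity) _

theorem yy_le {a n : ℕ} {c : ℝ} (h : c ^ 6 * a ≤ n) : c * yy a ≤ yy n :=
  le_of_pow_le_pow_left₀ (n := 6) (by norm_num) (yy_nonneg n) (by rw [mul_pow, yy_pow, yy_pow]; exact h)

theorem one_le_yy {n : ℕ} (hn : 1 ≤ n) : 1 ≤ yy n :=
  Real.one_le_rpow (by exact_mod_cast hn) (by positivity)

theorem yy_inv : Tendsto (fun n => (yy n)⁻¹) atTop (𝓝 0) :=
  ((tendsto_rpow_atTop (by positivity)).comp tendsto_natCast_atTop_atTop).inv_tendsto_atTop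

noncomputable def mu (k C n : ℕ) : ℝ := G (cl (lits (Vn n)) k) (C * n) e Set.univ

section
variable {k C : ℕ} (hk : 2 ≤ k) (hC : 1 ≤ C)
include hk hC

theorem hML {n : ℕ} (hn : 1 ≤ n) : ((C * n : ℕ) : ℝ) ≤ (C * yy n ^ 2) ^ (k + 1) := by
  have h1 := one_le_yy hn
  have h2 : (1 : ℝ) ≤ C := by exact_mod_cast hC
  refine le_trans ?_ (pow_le_pow_right₀ (by nlinarith) (by omega : 3 ≤ k + 1))
  rw [mul_pow, ← pow_mul, yy_pow]
  push_cast
  gcongr
  exact le_self_pow₀ h2 (by norm_num)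

theorem var_n {n : ℕ} (hn : 1 ≤ n) : g2 (cl (lits (Vn n)) (k + 1)) (C * n) Set.univ (mu (k + 1) C n) ≤
    (2 * (k + 1) * C ^ 2 * yy n ^ 5) ^ 2 := by
  have h1 := one_le_yy hn
  refine (var_bound k _ _ (by positivity) (hML hk hC hn)).trans ?_
  rw [card_Vn hn]
  push_cast
  rw [← yy_pow n, div_le_iff₀ (by positivity)]
  have : (0 : ℝ) ≤ k := Nat.cast_nonneg k
  have : 0 ≤ (C : ℝ) ^ 4 * yy n ^ 16 * (k * (k + 1)) := by positivity
  nlinarith

theorem F1 {n : ℕ} (hn : 1 ≤ n) (m : ℕ) (s : ℝ) (hs : 0 < s) (h : m + s ≤ mu (k + 1) C n) :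
    1 - sp (Vn n) (k + 1) m ≤ (2 * (k + 1) * C ^ 2 * yy n ^ 5) ^ 2 / s ^ 2 := by
  have h1 := (cheb_lower _ _ m _ _ (by linarith)).trans (var_n hk hC hn)
  rw [le_div_iff₀ (by positivity)]
  refine le_trans (mul_le_mul_of_nonneg_left ?_ (sub_nonneg.2 (sp_le_one _ _ _))) h1
  gcongr; linarith

theorem F2 {n : ℕ} (hn : 1 ≤ n) (m : ℕ) (s : ℝ) (hs : 0 < s) (hm : m < C * n)
    (h : mu (k + 1) C n + s ≤ m + 1) :
    sp (Vn n) (k + 1) m ≤ (2 * (k + 1) * C ^ 2 * yy n ^ 5) ^ 2 / s ^ 2 := by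
  have h1 := (cheb_upper _ _ m _ _ hm (by linarith)).trans (var_n hk hC hn)
  rw [le_div_iff₀ (by positivity)]
  refine le_trans (mul_le_mul_of_nonneg_left ?_ (sp_nonneg _ _ _)) h1
  gcongr; linarith

theorem F4 {a d : ℕ} (ha : 1 ≤ a) :
    mu (k + 1) C a ≤ mu (k + 1) C (a + d) + 2 * (k + 1) * C ^ 2 * d * yy (a + d) ^ 2 := by
  have h1 := one_le_yy (n := a + d) (by omega)
  have h2 := add_vars (V1 := Vn a) (V2 := Fin d) (V := Vn (a + d)) (Fintype.equivOfCardEq (by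
    rw [Fintype.card_sum, card_Vn ha, card_Vn (by omega), Fintype.card_fin])) k _ _
    (by positivity) (hML hk hC (by omega : 1 ≤ a + d))
  rw [card_Vn (by omega), Fintype.card_fin] at h2
  refine (G_le_G _ (by nlinarith) e_nonneg _).trans (h2.trans (le_of_eq ?_))
  have : (0 : ℝ) < a + d := by positivity
  unfold mu
  push_cast
  field_simp

omit hk hC in
theorem mu_le (k C n : ℕ) : mu k C n ≤ C * n := by
  simpa [e, mu] using G_le (cl (lits (Vn n)) k) (C * n) Set.univ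

theorem main_step {a b : ℕ} (ha : 1 ≤ a) (hb : 1 ≤ b) (hab : b ≤ 2 * a) (hba : a ≤ 2 * b) (γ : ℝ)
    (h1 : γ * a ≤ mu (k + 1) C a) (h2 : γ * b ≤ mu (k + 1) C b) :
    γ * (a + b : ℕ) - 26 * (2 * (k + 1) * C ^ 2 * yy (a + b) ^ 5) ≤ mu (k + 1) C (a + b) := by
  have hy := one_le_yy (n := a + b) (by omega)
  have hy6 := yy_pow (a + b)
  have hC' : (1 : ℝ) ≤ C := by exact_mod_cast hC
  have ha' : (1 : ℝ) ≤ a := by exact_mod_cast ha
  have hb' : (1 : ℝ) ≤ b := by exact_mod_cast hb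
  have hab' : (b : ℝ) ≤ 2 * a := by exact_mod_cast hab
  have hba' : (a : ℝ) ≤ 2 * b := by exact_mod_cast hba
  have hk0 : (0 : ℝ) ≤ k := Nat.cast_nonneg k
  set σ := 2 * (k + 1) * C ^ 2 * yy (a + b) ^ 5 with hσ
  have σ0 : 0 < σ := by positivity
  have m0 : 0 ≤ mu (k + 1) C (a + b) := G_nonneg _ _ e_nonneg _
  by_cases h : γ * (a + b : ℕ) - 24 * σ < 0
  · linarith
  push Not at h
  have g1 : γ ≤ C := le_of_mul_le_mul_right (h1.trans (mu_le _ _ _)) (by linarith)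
  have f1 := Nat.floor_le h
  have f2 := Nat.lt_floor_add_one (γ * (a + b : ℕ) - 24 * σ)
  generalize ⌊γ * (a + b : ℕ) - 24 * σ⌋₊ = m at f1 f2
  have f3 : (m : ℝ) < C * (a + b : ℕ) := by
    have : γ * (a + b : ℕ) ≤ C * (a + b : ℕ) := by gcongr
    linarith
  have side : ∀ c : ℕ, 1 ≤ c → c ≤ a + b → (a + b : ℝ) ≤ 3 * c → γ * c ≤ mu (k + 1) C c →
      ∀ i : ℕ, (i : ℝ) ≤ Fintype.card (Vn c) / Fintype.card (Vn (a + b)) * m + 4 * σ →
        1 - sp (Vn c) (k + 1) i ≤ 1 / 16 := by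
    intro c c1 c2 c3 c4 i hi
    rw [card_Vn c1, card_Vn (by omega)] at hi
    have c5 : (c : ℝ) / (a + b : ℕ) * m ≤ c / (a + b : ℕ) * (γ * (a + b : ℕ) - 24 * σ) := by gcongr
    have c6 : (1 : ℝ) / 3 ≤ c / (a + b : ℕ) := by
      rw [div_le_div_iff₀ (by norm_num) (by positivity)]; push_cast; linarith
    have c7 : (c : ℝ) / (a + b : ℕ) * (γ * (a + b : ℕ)) = γ * c := by
      have : (0 : ℝ) < (a + b : ℕ) := by positivity
      field_simp
    refine (F1 hk hC c1 i (4 * σ) (by positivity) (by nlinarith)).trans ?_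
    have c8 : yy c ≤ yy (a + b) := by
      simpa using yy_le (c := 1) (a := c) (n := a + b) (by simpa using (by exact_mod_cast c2))
    have c9 := yy_nonneg c
    have c10 : (2 * (k + 1) * C ^ 2 * yy c ^ 5) ^ 2 ≤ σ ^ 2 := by rw [hσ]; gcongr
    rw [div_le_iff₀ (by positivity)]; nlinarith
  have i1 := interp (V1 := Vn a) (V2 := Vn b) (V := Vn (a + b)) (Fintype.equivOfCardEq (by
    rw [Fintype.card_sum, card_Vn ha, card_Vn hb, card_Vn (by omega)])) (k + 1) m (4 * σ) (1 / 16)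
    (by positivity) (by norm_num) (side a ha (by omega) (by linarith) h1)
    (side b hb (by omega) (by linarith) h2)
  have i2 : 2 * (m : ℝ) / (4 * σ) ^ 2 ≤ 1 / 8 := by
    have j1 : (C : ℝ) * yy (a + b) ^ 3 ≤ σ := by
      have : yy (a + b) ^ 3 ≤ yy (a + b) ^ 5 := pow_le_pow_right₀ hy (by norm_num)
      have : (C : ℝ) ≤ 2 * (k + 1) * C ^ 2 := by nlinarith
      rw [hσ]; gcongr
    have j2 : ((C : ℝ) * yy (a + b) ^ 3) ^ 2 ≤ σ ^ 2 := by gcongr
    rw [mul_pow, ← pow_mul, hy6] at j2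
    have j3 : (C : ℝ) * (a + b : ℕ) ≤ C ^ 2 * (a + b : ℕ) := by gcongr; nlinarith
    rw [div_le_iff₀ (by positivity)]; nlinarith
  by_contra hc
  have i3 := F2 hk hC (n := a + b) (by omega) m (2 * σ) (by positivity) (by exact_mod_cast f3)
    (by linarith)
  rw [← hσ] at i3
  have : σ ^ 2 / (2 * σ) ^ 2 = 1 / 4 := by field_simp; norm_num
  linarith

theorem multiples {n0 : ℕ} (hn : 1 ≤ n0) (γ : ℝ)
    (h : (γ + 520 * (2 * (k + 1) * C ^ 2) * (yy n0)⁻¹) * n0 ≤ mu (k + 1) C n0) (j : ℕ) (hj : 1 ≤ j) :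
    (γ + 520 * (2 * (k + 1) * C ^ 2) * (yy (j * n0))⁻¹) * (j * n0 : ℕ) ≤ mu (k + 1) C (j * n0) := by
  induction j using Nat.strong_induction_on with
  | _ j ih =>
  rcases hj.eq_or_lt with rfl | hj
  · simpa using h
  have e : j * n0 = j / 2 * n0 + (j - j / 2) * n0 := by rw [← add_mul]; congr 1; omega
  have hy := one_le_yy (n := j * n0) (Nat.mul_pos (by omega) hn)
  set K : ℝ := 2 * (k + 1) * C ^ 2 with hK
  have K0 : 0 ≤ K := by positivity
  have side : ∀ i, 1 ≤ i → i < j → 3 * i ≤ 2 * j →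
      (γ + 520 * K * (1.06 * (yy (j * n0))⁻¹)) * (i * n0 : ℕ) ≤ mu (k + 1) C (i * n0) := by
    intro i i1 i2 i3
    refine le_trans ?_ (ih i i2 i1)
    have hy' := one_le_yy (n := i * n0) (Nat.mul_pos (by omega) hn)
    have h1 : 1.06 * yy (i * n0) ≤ yy (j * n0) := yy_le (by
      have : (3 * i : ℝ) ≤ 2 * j := by exact_mod_cast i3
      have : (0 : ℝ) ≤ i * n0 := by positivity
      push_cast
      nlinarith [mul_le_mul_of_nonneg_right ‹(3 * i : ℝ) ≤ 2 * j› (Nat.cast_nonneg n0)])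
    gcongr
    rw [← div_eq_mul_inv, ← one_div, div_le_div_iff₀ (by linarith) (by linarith)]; linarith
  have h1 := main_step hk hC (Nat.mul_pos (by omega : 0 < j / 2) hn)
    (Nat.mul_pos (by omega : 0 < j - j / 2) hn)
    (by rw [← mul_assoc]; exact Nat.mul_le_mul_right _ (by omega))
    (by rw [← mul_assoc]; exact Nat.mul_le_mul_right _ (by omega)) _
    (side (j / 2) (by omega) (by omega) (by omega)) (side (j - j / 2) (by omega) (by omega) (by omega))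
  rw [← e, ← hK] at h1
  refine le_trans ?_ h1
  rw [← yy_pow (j * n0)]
  have e2 : (yy (j * n0))⁻¹ * yy (j * n0) ^ 6 = yy (j * n0) ^ 5 := by field_simp
  have : 0 ≤ K * yy (j * n0) ^ 5 := by positivity
  have e3 : ∀ x : ℝ, (γ + 520 * K * (x * (yy (j * n0))⁻¹)) * yy (j * n0) ^ 6 =
      γ * yy (j * n0) ^ 6 + 520 * x * (K * yy (j * n0) ^ 5) := fun x => by rw [← e2]; ring
  have e4 := e3 1
  rw [one_mul] at e4
  rw [e3, e4]; linarith

theorem lower_all {n0 : ℕ} (hn : 1 ≤ n0) (N : ℕ) (hN : n0 ≤ N) :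
    mu (k + 1) C n0 / n0 - 520 * (2 * (k + 1) * C ^ 2) * (yy n0)⁻¹ -
      (C + 2 * (k + 1) * C ^ 2) * n0 * (yy N)⁻¹ ≤ mu (k + 1) C N / N := by
  have hn' : (0 : ℝ) < n0 := by exact_mod_cast hn
  set K : ℝ := 2 * (k + 1) * C ^ 2 with hK
  have K0 : 0 ≤ K := by positivity
  set γ := mu (k + 1) C n0 / n0 - 520 * K * (yy n0)⁻¹ with hγ
  have g1 : γ ≤ C := by
    have : mu (k + 1) C n0 / n0 ≤ C := by rw [div_le_iff₀ hn']; exact mu_le _ _ _
    have : 0 ≤ 520 * K * (yy n0)⁻¹ := by have := yy_nonneg n0; positivity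
    linarith
  have hj : 1 ≤ N / n0 := Nat.div_pos hN hn
  have h1 := multiples hk hC hn γ (by rw [hγ, ← hK, sub_add_cancel, div_mul_cancel₀ _ hn'.ne']) _ hj
  have h2 := F4 hk hC (d := N % n0) (Nat.mul_pos hj hn)
  have h3 : ((N / n0 * n0 : ℕ) : ℝ) + (N % n0 : ℕ) = N := by exact_mod_cast Nat.div_add_mod' N n0
  have h4 : ((N % n0 : ℕ) : ℝ) ≤ n0 := by exact_mod_cast (Nat.mod_lt N hn).le
  have h5 : (0 : ℝ) ≤ (N % n0 : ℕ) := Nat.cast_nonneg _
  rw [Nat.div_add_mod', ← hK] at h2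
  rw [← hK] at h1
  have h6 : 0 ≤ 520 * K * (yy (N / n0 * n0))⁻¹ * (N / n0 * n0 : ℕ) := by
    have := yy_nonneg (N / n0 * n0); positivity
  have hy := one_le_yy (hn.trans hN)
  have h7 : (yy N)⁻¹ * N = yy N ^ 5 := by rw [← yy_pow N]; field_simp
  have h8 : yy N ^ 2 ≤ yy N ^ 5 := pow_le_pow_right₀ hy (by norm_num)
  have h9 : 1 ≤ yy N ^ 5 := one_le_pow₀ hy
  have h10 : K * (N % n0 : ℕ) * yy N ^ 2 ≤ K * n0 * yy N ^ 5 := by gcongr
  have h11 : γ * (N % n0 : ℕ) ≤ C * n0 * yy N ^ 5 := by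
    have : (0 : ℝ) ≤ C * n0 := by positivity
    nlinarith [mul_le_mul_of_nonneg_right g1 h5, mul_le_mul_of_nonneg_left h4 (Nat.cast_nonneg C)]
  rw [le_div_iff₀ (by exact_mod_cast hn.trans hN), sub_mul, mul_assoc _ _ (N : ℝ), h7, ← h3]
  nlinarith

theorem mu_tendsto : ∃ α : ℝ, Tendsto (fun n => mu (k + 1) C n / n) atTop (𝓝 α) := by
  set K : ℝ := 2 * (k + 1) * C ^ 2 with hK
  have K0 : 0 ≤ K := by positivity
  set f : ℕ → ℝ := fun n => mu (k + 1) C (n + 1) / (n + 1 : ℕ) - 520 * K * (yy (n + 1))⁻¹ with hf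
  have bd : BddAbove (Set.range f) := ⟨C, by
    rintro _ ⟨n, rfl⟩
    have : mu (k + 1) C (n + 1) / (n + 1 : ℕ) ≤ C := by
      rw [div_le_iff₀ (by positivity)]; exact mu_le _ _ _
    have : 0 ≤ 520 * K * (yy (n + 1))⁻¹ := by have := yy_nonneg (n + 1); positivity
    simp only [hf]; linarith⟩
  refine ⟨⨆ n, f n, tendsto_order.2 ⟨fun a ha => ?_, fun a ha => ?_⟩⟩
  · obtain ⟨n, hn⟩ := exists_lt_of_lt_ciSup ha
    have h1 := (yy_inv.const_mul ((C + K) * (n + 1 : ℕ))).const_sub (f n)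
    rw [mul_zero, sub_zero] at h1
    filter_upwards [h1.eventually (lt_mem_nhds hn), eventually_ge_atTop (n + 1)] with N h2 h3
    exact h2.trans_le (lower_all hk hC (by omega) N h3)
  · have h1 := (yy_inv.const_mul (520 * K)).const_add (⨆ n, f n)
    rw [mul_zero, add_zero] at h1
    filter_upwards [h1.eventually (gt_mem_nhds ha), eventually_ge_atTop 1] with N h2 h3
    obtain ⟨n, rfl⟩ : ∃ n, N = n + 1 := ⟨N - 1, by omega⟩
    have := le_ciSup bd n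
    simp only [hf] at this h2
    linarith

theorem mu_ge {n : ℕ} (hn : 1 ≤ n) : 1 / 45 ≤ mu (k + 1) C n / n := by
  have h1 : n / 30 + 1 ≤ C * n := by
    have : n ≤ C * n := Nat.le_mul_of_pos_left _ hC
    omega
  have h2 := Finset.card_nsmul_le_sum (range (n / 30 + 1)) (fun j => sp (Vn n) (k + 1) j) (2 / 3)
    fun j hj => hall_bound _ _ (by omega) (by rw [card_Vn hn]; have := mem_range.1 hj; omega)
  have h3 := G_le_G (cl (lits (Vn n)) (k + 1)) h1 e_nonneg Set.univ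
  have h4 : (n : ℝ) ≤ 30 * ((n / 30 + 1 : ℕ) : ℝ) := by exact_mod_cast (by omega : n ≤ 30 * (n / 30 + 1))
  rw [card_range, nsmul_eq_mul] at h2
  rw [le_div_iff₀ (by exact_mod_cast hn)]
  have : ∑ j ∈ range (n / 30 + 1), sp (Vn n) (k + 1) j ≤ mu (k + 1) C n := h3
  linarith

end

theorem mu_le' (k : ℕ) {n : ℕ} (hn : 1 ≤ n) : mu k (2 ^ (k + 2)) n / n ≤ 4 / 5 * 2 ^ (k + 2) := by
  have h1 : sp (Vn n) k (2 ^ (k + 1) * n) ≤ 3 / 10 := by
    refine (first_moment k _).trans ?_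
    rw [card_Vn hn, pow_mul, ← mul_pow]
    have a1 : (1 - (1 / 2 : ℝ) ^ k) ^ 2 ^ (k + 1) ≤ exp (-2) := by
      have b1 : 1 - (1 / 2 : ℝ) ^ k ≤ exp (-(1 / 2) ^ k) := by
        linarith [Real.add_one_le_exp (-(1 / 2 : ℝ) ^ k)]
      refine (pow_le_pow_left₀ (sub_nonneg.2 (pow_le_one₀ (by norm_num) (by norm_num))) b1 _).trans ?_
      rw [← Real.exp_nat_mul]; apply le_of_eq; congr 1
      push_cast; rw [one_div, inv_pow]; field_simp; ring
    have a2 : exp (-2) ≤ 3 / 20 := by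
      have := Real.exp_one_gt_d9
      rw [Real.exp_neg, inv_le_comm₀ (exp_pos _) (by norm_num),
        show (2 : ℝ) = 1 + 1 by norm_num, Real.exp_add]
      nlinarith
    have a3 : 0 ≤ (1 - (1 / 2 : ℝ) ^ k) ^ 2 ^ (k + 1) :=
      pow_nonneg (sub_nonneg.2 (pow_le_one₀ (by norm_num) (by norm_num))) _
    exact (pow_le_of_le_one (by positivity) (by linarith) (by omega)).trans (by linarith)
  have e1 : 2 ^ (k + 2) * n = 2 ^ (k + 1) * n + 2 ^ (k + 1) * n := by ring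
  rw [div_le_iff₀ (by exact_mod_cast hn)]
  unfold mu G
  rw [e1, Finset.sum_range_add]
  have h2 := Finset.sum_le_card_nsmul (range (2 ^ (k + 1) * n)) (fun j => sp (Vn n) k j) 1
    fun j _ => sp_le_one _ _ _
  have h3 := Finset.sum_le_card_nsmul (range (2 ^ (k + 1) * n))
    (fun j => sp (Vn n) k (2 ^ (k + 1) * n + j)) (3 / 10)
    fun j _ => (pw_anti _ _ (Nat.le_add_right _ j)).trans h1
  rw [card_range, nsmul_eq_mul] at h2 h3
  push_cast at h2 h3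
  refine (add_le_add h2 h3).trans ?_
  have : (0 : ℝ) ≤ 2 ^ (k + 1) * n := by positivity
  rw [pow_succ _ (k + 1)]; nlinarith

end Vale.Agent.P170
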