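import Vale.Agent.Lib.helper15.Law

/-! Random intersections of sets: operators, hybrid arguments, variance of the survival time. -/

namespace Vale.Agent.P170

open Finset Real Vale.Agent.H15 Vale.Agent.H15.Law
open scoped Classical

variable {Ω Ω' : Type}

theorem E_comm {α β : Type} (μ : Law α) (ν : Law β) (f : α → β → ℝ) :
    μ.E (fun a => ν.E (fun b => f a b)) = ν.E (fun b => μ.E (fun a => f a b)) := by
  unfold Law.E
  simp only [Finset.mul_sum]
  rw [Finset.sum_comm]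
  exact Finset.sum_congr rfl fun _ _ => Finset.sum_congr rfl fun _ _ => by ring

theorem E_sq_le {α : Type} (μ : Law α) (f : α → ℝ) (a c : ℝ) :
    μ.E (fun x => (f x - a) ^ 2) ≤ (μ.E f - a) ^ 2 + μ.E (fun x => (c - f x) ^ 2) := by
  have h : ∀ b : ℝ, μ.E (fun x => (f x - b) ^ 2) =
      μ.E (fun x => f x ^ 2) - 2 * b * μ.E f + b ^ 2 := by
    intro b
    rw [← E_const_mul, ← E_sub, ← E_const μ (b ^ 2), ← E_add]
    congr 1; ext x; ring
  have h2 : μ.E (fun x => (c - f x) ^ 2) = μ.E (fun x => (f x - c) ^ 2) := by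
    congr 1; ext x; ring
  rw [h2, h, h]
  nlinarith [sq_nonneg (μ.E f - c)]

theorem sq_E_le {α : Type} (μ : Law α) (f : α → ℝ) : (μ.E f) ^ 2 ≤ μ.E (fun x => f x ^ 2) := by
  have h1 : 0 ≤ μ.E (fun x => (f x - μ.E f) ^ 2) := E_nonneg fun _ => sq_nonneg _
  have h : μ.E (fun x => (f x - μ.E f) ^ 2) =
      μ.E (fun x => f x ^ 2) - 2 * μ.E f * μ.E f + μ.E f ^ 2 := by
    rw [← E_const_mul, ← E_sub, ← E_const μ (μ.E f ^ 2), ← E_add]
    congr 1; ext x; ring
  nlinarith

noncomputable def e (S : Set Ω) : ℝ := if S.Nonempty then 1 else 0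

theorem e_nonneg (S : Set Ω) : 0 ≤ e S := by unfold e; split_ifs <;> norm_num
theorem e_le_one (S : Set Ω) : e S ≤ 1 := by unfold e; split_ifs <;> norm_num
theorem e_mono {S S' : Set Ω} (h : S ⊆ S') : e S ≤ e S' := by
  unfold e
  split_ifs with h1 h2 <;> try norm_num
  exact h2 (h1.mono h)
@[simp] theorem e_empty : e (∅ : Set Ω) = 0 := by simp [e]
theorem e_of {S : Set Ω} (h : S.Nonempty) : e S = 1 := if_pos h

noncomputable def T (μ : Law (Set Ω)) (f : Set Ω → ℝ) (S : Set Ω) : ℝ := μ.E (fun R => f (S ∩ R))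

noncomputable def pw (μ : Law (Set Ω)) : ℕ → Law (Set Ω)
  | 0 => Law.pure Set.univ
  | m + 1 => μ.bind fun R => (pw μ m).map (R ∩ ·)

theorem T_comm (μ ν : Law (Set Ω)) (f : Set Ω → ℝ) : T μ (T ν f) = T ν (T μ f) := by
  ext S
  unfold T
  rw [E_comm]
  simp only [Set.inter_right_comm S]

@[simp] theorem T_pw_zero (μ : Law (Set Ω)) (f : Set Ω → ℝ) : T (pw μ 0) f = f := by
  ext S; simp [T, pw]

theorem T_pw_succ (μ : Law (Set Ω)) (m : ℕ) (f : Set Ω → ℝ) :
    T (pw μ (m + 1)) f = T μ (T (pw μ m) f) := by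
  ext S; simp [T, pw, Set.inter_assoc]

theorem T_mono (μ : Law (Set Ω)) {f g : Set Ω → ℝ} (h : ∀ S, f S ≤ g S) (S : Set Ω) :
    T μ f S ≤ T μ g S := E_mono fun _ => h _

theorem T_nonneg (μ : Law (Set Ω)) {f : Set Ω → ℝ} (h : ∀ S, 0 ≤ f S) (S : Set Ω) :
    0 ≤ T μ f S := E_nonneg fun _ => h _

theorem T_e_mono (μ : Law (Set Ω)) {S S' : Set Ω} (h : S ⊆ S') : T μ e S ≤ T μ e S' :=
  E_mono fun _ => e_mono (Set.inter_subset_inter_left _ h)

theorem T_e_le (μ : Law (Set Ω)) (S : Set Ω) : T μ e S ≤ e S :=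
  E_le_const fun _ => e_mono Set.inter_subset_left

@[simp] theorem T_e_empty (μ : Law (Set Ω)) : T μ e ∅ = 0 := by simp [T]

theorem hybrid {μ ν : Law (Set Ω)} (h : ∀ S, T ν e S ≤ T μ e S) (m : ℕ) :
    ∀ S, T (pw ν m) e S ≤ T (pw μ m) e S := by
  induction m with
  | zero => simp
  | succ m ih =>
    intro S
    rw [T_pw_succ, T_pw_succ, T_comm μ]
    refine (T_mono ν ih S).trans ?_
    rw [T_comm ν]
    exact T_mono _ h S

theorem pw_anti (μ : Law (Set Ω)) (S : Set Ω) : Antitone fun m => T (pw μ m) e S := by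
  refine antitone_nat_of_succ_le fun m => ?_
  rw [T_pw_succ, T_comm]
  exact T_mono _ (T_e_le μ) S

theorem pw_le_pow (μ : Law (Set Ω)) (S : Set Ω) (m : ℕ) : T (pw μ m) e S ≤ (T μ e S) ^ m := by
  induction m with
  | zero => simpa using e_le_one S
  | succ m ih =>
    rw [T_pw_succ, pow_succ]
    refine le_trans (E_mono (g := fun R => (T μ e S) ^ m * e (S ∩ R)) fun R => ?_)
      (E_const_mul _ _ _).le
    rcases (S ∩ R).eq_empty_or_nonempty with h | h
    · simp [h]
    · rw [e_of h, mul_one]; exact (T_e_mono _ Set.inter_subset_left).trans ih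

noncomputable def G (μ : Law (Set Ω)) (t : ℕ) (f : Set Ω → ℝ) (S : Set Ω) : ℝ :=
  ∑ j ∈ range t, T (pw μ j) f S

theorem G_succ (μ : Law (Set Ω)) (t : ℕ) (f : Set Ω → ℝ) (S : Set Ω) :
    G μ (t + 1) f S = f S + T μ (G μ t f) S := by
  unfold G
  rw [Finset.sum_range_succ', add_comm, T_pw_zero]
  simp only [T_pw_succ]
  exact congrArg _ (E_sum _ _ _).symm

theorem G_mono (μ : Law (Set Ω)) (t : ℕ) {f g : Set Ω → ℝ} (h : ∀ S, f S ≤ g S) (S : Set Ω) :
    G μ t f S ≤ G μ t g S := Finset.sum_le_sum fun _ _ => T_mono _ h S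

theorem G_nonneg (μ : Law (Set Ω)) (t : ℕ) {f : Set Ω → ℝ} (h : ∀ S, 0 ≤ f S) (S : Set Ω) :
    0 ≤ G μ t f S := Finset.sum_nonneg fun _ _ => T_nonneg _ h S

theorem G_le_G (μ : Law (Set Ω)) {t t' : ℕ} (ht : t ≤ t') {f : Set Ω → ℝ} (h : ∀ S, 0 ≤ f S)
    (S : Set Ω) : G μ t f S ≤ G μ t' f S :=
  Finset.sum_le_sum_of_subset_of_nonneg (range_mono ht) fun _ _ _ => T_nonneg _ h S

theorem G_T (μ ν : Law (Set Ω)) (t : ℕ) (f : Set Ω → ℝ) (S : Set Ω) :
    G μ t (T ν f) S = T ν (G μ t f) S := by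
  unfold G
  simp only [← T_comm ν]
  exact (E_sum _ _ _).symm

theorem G_lin (μ : Law (Set Ω)) (t : ℕ) (a b : ℝ) (f g : Set Ω → ℝ) (S : Set Ω) :
    G μ t (fun S => a * (f S - g S) + b) S = a * (G μ t f S - G μ t g S) + t * b := by
  unfold G T
  simp only [E_add, E_const_mul, E_sub, E_const, Finset.sum_add_distrib, ← Finset.mul_sum,
    Finset.sum_sub_distrib, Finset.sum_const, card_range, nsmul_eq_mul]

theorem G_le (μ : Law (Set Ω)) (t : ℕ) (S : Set Ω) : G μ t e S ≤ t * e S := by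
  have := Finset.sum_le_card_nsmul (range t) (fun j => T (pw μ j) e S) _ fun j _ => T_e_le _ S
  simpa [G] using this

theorem G_tele (μ : Law (Set Ω)) (t : ℕ) (S : Set Ω) : G μ t e S - G μ t (T μ e) S ≤ 1 := by
  have h1 := G_succ μ t e S
  have h2 := G_le_G μ (Nat.le_succ t) e_nonneg S
  rw [G_T]; linarith [e_le_one S]

theorem G_hybrid {μ ν : Law (Set Ω)} (h : ∀ S, T ν e S ≤ T μ e S) (t : ℕ) (S : Set Ω) :
    G ν t e S ≤ G μ t e S := Finset.sum_le_sum fun m _ => hybrid h m S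

theorem qhybrid {μ ν : Law (Set Ω)} {a b : ℝ} (ha : 0 ≤ a) (hb : 0 ≤ b)
    (h : ∀ S, T μ e S - T ν e S ≤ a * (e S - T ν e S) + b) (t : ℕ) :
    ∀ S, G μ t e S ≤ G ν t e S + t * (a + t * b) := by
  induction t with
  | zero => simp [G]
  | succ t ih =>
    intro S
    have h1 := T_mono μ ih S
    have h2 : T μ (fun S => G ν t e S + t * (a + t * b)) S =
      T μ (G ν t e) S + t * (a + t * b) := by unfold T; rw [E_add, E_const]
    have h3 := G_mono ν t (f := fun S => 1 * (T μ e S - T ν e S) + 0) (fun S => by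
      simpa using h S) S
    rw [G_lin, G_lin, G_T, G_T] at h3
    have h4 := G_tele ν t S
    rw [G_T] at h4
    rw [G_succ, G_succ]
    have h5 : (0 : ℝ) ≤ t := Nat.cast_nonneg t
    push_cast
    nlinarith [mul_le_mul_of_nonneg_left h4 ha, mul_nonneg h5 hb]

theorem hazard (μ : Law (Set Ω)) (t : ℕ) (S : Set Ω) : (e S - T μ e S) * G μ t e S ≤ 1 := by
  rcases S.eq_empty_or_nonempty with rfl | hS
  · simp
  have h0 := T_nonneg μ e_nonneg S
  have h1 := T_e_le μ S
  rw [e_of hS] at h1 ⊢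
  induction t with
  | zero => simp [G]
  | succ t ih =>
    have h2 : T μ (G μ t e) S ≤ G μ t e S * T μ e S := by
      refine le_trans (E_mono (g := fun R => G μ t e S * e (S ∩ R)) fun R => ?_)
        (E_const_mul _ _ _).le
      rcases (S ∩ R).eq_empty_or_nonempty with h | h
      · simp [h, G]
      · rw [e_of h, mul_one]
        exact Finset.sum_le_sum fun _ _ => T_e_mono _ Set.inter_subset_left
    rw [G_succ, e_of hS]
    nlinarith [mul_le_mul_of_nonneg_left h2 (sub_nonneg.2 h1), mul_le_mul_of_nonneg_left ih h0]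

theorem G_sq_le (μ : Law (Set Ω)) (M : ℕ) (I : Set Ω → ℝ) (h0 : ∀ S, 0 ≤ I S)
    (h1 : ∀ S, I S ≤ e S) (t : ℕ) (ht : t ≤ M) :
    ∀ S, (G μ t I S) ^ 2 ≤ G μ t (fun S => 2 * I S * G μ M e S) S := by
  induction t with
  | zero => simp [G]
  | succ t ih =>
    intro S
    have a1 := (G_mono μ (t + 1) h1 S).trans (G_le_G μ ht e_nonneg S)
    have a2 : (T μ (G μ t I) S) ^ 2 ≤ _ := (sq_E_le _ _).trans (T_mono μ (ih (by omega)) S)
    rw [G_succ] at a1 ⊢
    rw [G_succ]
    nlinarith [mul_le_mul_of_nonneg_left a1 (h0 S), sq_nonneg (I S)]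

/-- second moment of the survival time about `a` -/
noncomputable def g2 (μ : Law (Set Ω)) : ℕ → Set Ω → ℝ → ℝ
  | 0, _, a => a ^ 2
  | t + 1, S, a => μ.E fun R => g2 μ t (S ∩ R) (a - e S)

theorem g2_le (μ : Law (Set Ω)) (M : ℕ) (w : Set Ω → ℝ)
    (hw : ∀ S, 2 * (e S - T μ e S) * G μ M e S ≤ w S) (t : ℕ) (ht : t ≤ M) :
    ∀ S a, g2 μ t S a ≤ (G μ t e S - a) ^ 2 + t * G μ t w S := by
  have w0 : ∀ S, 0 ≤ w S := fun S => le_trans (mul_nonneg (by linarith [T_e_le μ S])
    (G_nonneg μ M e_nonneg S)) (hw S)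
  induction t with
  | zero => simp [G, g2]
  | succ t ih =>
    intro S a
    have a1 : g2 μ (t + 1) S a ≤ μ.E (fun R => (G μ t e (S ∩ R) - (a - e S)) ^ 2) +
        t * T μ (G μ t w) S := by
      refine (E_mono fun R => ih (by omega) _ _).trans (le_of_eq ?_)
      rw [E_add, E_const_mul]; rfl
    have a2 := E_sq_le μ (fun R => G μ t e (S ∩ R)) (a - e S) (G μ t e S)
    have a3 : μ.E (fun R => (G μ t e S - G μ t e (S ∩ R)) ^ 2) ≤ G μ t w S := by
      have b1 : ∀ R, G μ t e S - G μ t e (S ∩ R) = G μ t (fun S' => e S' - e (S' ∩ R)) S := by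
        intro R
        unfold G T
        simp only [E_sub, Finset.sum_sub_distrib, Set.inter_right_comm S R]
      refine (E_mono (g := fun R => G μ t (fun S' => 2 * (e S' - e (S' ∩ R)) * G μ M e S') S)
        fun R => by
        rw [b1]
        exact G_sq_le μ M _ (fun S' => sub_nonneg.2 (e_mono Set.inter_subset_left))
          (fun S' => sub_le_self _ (e_nonneg _)) t (by omega) S).trans ?_
      refine le_trans (le_of_eq ?_) (G_mono μ t hw S)
      generalize G μ M e = φ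
      unfold G
      rw [E_sum]
      refine Finset.sum_congr rfl fun j _ => ?_
      unfold T
      rw [E_comm]
      simp only [E_mul_const, E_const_mul, E_sub, E_const]
    have a4 := G_succ μ t w S
    have a5 := G_le_G μ (Nat.le_succ t) w0 S
    have a6 : μ.E (fun R => G μ t e (S ∩ R)) - (a - e S) = G μ (t + 1) e S - a := by
      rw [G_succ]; unfold T; ring
    rw [a6] at a2
    have h5 : (0 : ℝ) ≤ t := Nat.cast_nonneg t
    push_cast
    nlinarith [mul_nonneg h5 (w0 S)]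

theorem g2_empty (μ : Law (Set Ω)) (t : ℕ) (a : ℝ) : g2 μ t ∅ a = a ^ 2 := by
  induction t with
  | zero => rfl
  | succ t ih => simp [g2, ih]

theorem g2_nonneg (μ : Law (Set Ω)) (t : ℕ) : ∀ S a, 0 ≤ g2 μ t S a := by
  induction t with
  | zero => intro S a; exact sq_nonneg _
  | succ t ih => intro S a; exact E_nonneg fun R => ih _ _

theorem g2_neg (μ : Law (Set Ω)) (t : ℕ) : ∀ S a, a ≤ 0 → a ^ 2 ≤ g2 μ t S a := by
  induction t with
  | zero => intro S a _; exact le_rfl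
  | succ t ih =>
    intro S a ha
    have := e_nonneg S
    exact const_le_E fun R => le_trans (by nlinarith) (ih _ _ (by linarith))

theorem cheb_lower (μ : Law (Set Ω)) (t : ℕ) : ∀ (m : ℕ) S (a : ℝ), m ≤ a →
    (1 - T (pw μ m) e S) * (a - m) ^ 2 ≤ g2 μ t S a := by
  have b : ∀ (m : ℕ) S (a : ℝ), m ≤ a → (1 - T (pw μ m) e S) * (a - m) ^ 2 ≤ a ^ 2 := by
    intro m S a h
    have h1 := T_nonneg (pw μ m) e_nonneg S
    have h2 : (0 : ℝ) ≤ m := Nat.cast_nonneg m
    nlinarith [mul_nonneg h1 (sq_nonneg (a - m))]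
  induction t with
  | zero => exact b
  | succ t ih =>
    intro m S a h
    rcases S.eq_empty_or_nonempty with rfl | hS
    · rw [g2_empty]; exact b _ _ _ h
    rcases m with _ | m
    · rw [T_pw_zero, e_of hS]
      simp only [sub_self, zero_mul]
      exact g2_nonneg _ _ _ _
    · push_cast at h ⊢
      refine le_trans (le_of_eq ?_) (E_mono fun R => ih m (S ∩ R) (a - e S) (by
        rw [e_of hS]; linarith))
      rw [E_mul_const, E_sub, E_const, T_pw_succ, e_of hS]
      unfold T; ring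

theorem cheb_upper (μ : Law (Set Ω)) (t : ℕ) : ∀ (m : ℕ) S (a : ℝ), m < t → a ≤ m + 1 →
    T (pw μ m) e S * (m + 1 - a) ^ 2 ≤ g2 μ t S a := by
  induction t with
  | zero => intro m S a h; omega
  | succ t ih =>
    intro m S a h1 h
    rcases S.eq_empty_or_nonempty with rfl | hS
    · rw [g2_empty]; simpa using sq_nonneg a
    rcases m with _ | m
    · rw [T_pw_zero, e_of hS]
      refine const_le_E fun R => le_trans (le_of_eq ?_) (g2_neg μ t _ _ (by
        rw [e_of hS]; simpa using h))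
      rw [e_of hS]; push_cast; ring
    · push_cast at h ⊢
      refine le_trans (le_of_eq ?_) (E_mono fun R => ih m (S ∩ R) (a - e S) (by omega) (by
        rw [e_of hS]; linarith))
      rw [E_mul_const, T_pw_succ, e_of hS]
      unfold T; ring

end Vale.Agent.P170
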